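import Vale.Agent.P088.H599.J.Defs
import Vale.Agent.P088.H924.Orth

/-!
# P088, joint local uniqueness, row U_FIN: equal reduced data give equal tensors and gauge
equivalent connections
-/

open MeasureTheory Set Filter Topology
open scoped ContDiff Matrix

noncomputable section

namespace Vale.Agent.P088.H705.UFin

open Vale.Agent.P088.LR Vale.Agent.P088.LR.H158 Vale.Agent.P088.LR.CF Vale.Agent.P088.LR.U

variable {n N : ℕ}

/-! ### calculus -/

theorem SmC_det {F : MC n N} (hF : SmC F) : ContDiff ℝ ∞ fun x => (F x).det := by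
  simp only [Matrix.det_apply']
  exact ContDiff.sum fun σ _ => contDiff_const.mul (contDiff_prod fun i _ => hF _ _)

theorem SmC_adj {F : MC n N} (hF : SmC F) : SmC fun x => (F x).adjugate := by
  intro i j
  simp only [Matrix.adjugate_apply]
  have h1 : SmC fun x => (F x).updateRow j (Pi.single i 1) := by
    intro a b
    by_cases h : a = j
    · subst h
      simp only [Matrix.updateRow_self]
      exact contDiff_const
    · simp only [Matrix.updateRow_ne h]
      exact hF a b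
  exact SmC_det h1

theorem SmC_smul {c : V n → ℂ} (hc : ContDiff ℝ ∞ c) {F : MC n N} (hF : SmC F) :
    SmC fun x => c x • F x := by
  intro a b
  simp only [Matrix.smul_apply, smul_eq_mul]
  exact hc.mul (hF a b)

theorem SmC_inv {F : MC n N} (hF : SmC F) (hu : ∀ x, IsUnit (F x).det) :
    SmC fun x => (F x)⁻¹ := by
  have h2 : (fun x => (F x)⁻¹) = fun x => ((F x).det)⁻¹ • (F x).adjugate := by
    funext x
    rw [Matrix.inv_def, Ring.inverse_eq_inv']
  rw [h2]
  exact SmC_smul ((SmC_det hF).inv fun x => (hu x).ne_zero) (SmC_adj hF)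

theorem SmC_pdm {F : MC n N} (hF : SmC F) (i : Fin n) : SmC (pdm i F) := by
  intro a b
  exact LR.contDiff_pd (hF a b) i

theorem SmC_add {F G : MC n N} (hF : SmC F) (hG : SmC G) : SmC fun x => F x + G x := by
  intro a b
  simp only [Matrix.add_apply]
  exact (hF a b).add (hG a b)

theorem SmC_sub {F G : MC n N} (hF : SmC F) (hG : SmC G) : SmC fun x => F x - G x := by
  intro a b
  simp only [Matrix.sub_apply]
  exact (hF a b).sub (hG a b)

theorem SmC_cdC {A : Cn n N} (hA : SmU A) {F : MC n N} (hF : SmC F) (i : Fin n) :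
    SmC (cdC A i F) := SmC_add (SmC_pdm hF i) (SmC_mul (hA.1 i) hF)

theorem pdm_smul {c : V n → ℂ} (hc : ContDiff ℝ ∞ c) {F : MC n N} (hF : SmC F) (i : Fin n)
    (x : V n) : pdm i (fun x => c x • F x) x = pd i c x • F x + c x • pdm i F x := by
  ext a b
  simp only [pdm, Matrix.of_apply, Matrix.add_apply, Matrix.smul_apply, smul_eq_mul]
  exact pd_mul (dfa hc x) (dfa (hF a b) x) i

theorem pdm_sub {F G : MC n N} (hF : SmC F) (hG : SmC G) (i : Fin n) (x : V n) :
    pdm i (fun x => F x - G x) x = pdm i F x - pdm i G x := by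
  ext a b
  simp only [pdm, Matrix.of_apply, Matrix.sub_apply]
  exact pd_sub (dfa (hF a b) x) (dfa (hG a b) x) i

theorem cdC_smul (A : Cn n N) {c : V n → ℂ} (hc : ContDiff ℝ ∞ c) {F : MC n N} (hF : SmC F)
    (i : Fin n) (x : V n) :
    cdC A i (fun x => c x • F x) x = pd i c x • F x + c x • cdC A i F x := by
  unfold cdC
  rw [pdm_smul hc hF, Matrix.mul_smul, smul_add, add_assoc]

theorem cdC_sub (A : Cn n N) {F G : MC n N} (hF : SmC F) (hG : SmC G) (i : Fin n) (x : V n) :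
    cdC A i (fun x => F x - G x) x = cdC A i F x - cdC A i G x := by
  unfold cdC
  rw [pdm_sub hF hG, Matrix.mul_sub]
  abel

/-- the gauge rule -/
theorem cdC_gauge {A A₁ : Cn n N} {W : MC n N} (hW : SmC W) {i : Fin n}
    (h : ∀ x, pdm i W x + A i x * W x = W x * A₁ i x) {G : MC n N} (hG : SmC G) (x : V n) :
    cdC A i (fun x => W x * G x) x = W x * cdC A₁ i G x := by
  unfold cdC
  rw [pdm_mul hW hG, ← Matrix.mul_assoc, add_right_comm, ← Matrix.add_mul, h x, Matrix.mul_add,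
    Matrix.mul_assoc, add_comm]

theorem pd_ofReal {f : V n → ℝ} (hf : ContDiff ℝ ∞ f) (i : Fin n) (x : V n) :
    pd i (fun y => ((f y : ℝ) : ℂ)) x = ((pd i f x : ℝ) : ℂ) :=
  pd_clm Complex.ofRealCLM (dfa hf x) i

theorem contDiff_ofReal {f : V n → ℝ} (hf : ContDiff ℝ ∞ f) :
    ContDiff ℝ ∞ fun y => ((f y : ℝ) : ℂ) := Complex.ofRealCLM.contDiff.comp hf

theorem contDiff_pdR {F : Type*} [NormedAddCommGroup F] [NormedSpace ℝ F] {f : V n → F}
    (hf : ContDiff ℝ ∞ f) (i : Fin n) : ContDiff ℝ ∞ (pd i f) :=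
  (hf.fderiv_right (m := ∞) (by simp)).clm_apply contDiff_const

/-! ### the energy argument -/

theorem isCompact_core : IsCompact (core n) := by
  have h : core n = Set.pi univ fun _ : Fin n => Icc (1 / 4 : ℝ) (3 / 4) := by
    ext x
    simp only [core, Set.mem_ofPred_eq, Set.mem_pi, Set.mem_univ, true_implies, Set.mem_Icc]
  rw [h]
  exact isCompact_univ_pi fun _ => isCompact_Icc

theorem v_eq_one (hn : 1 ≤ n) {Ω : Set (V n)} (hΩc : Ω ⊆ core n) {σ v : V n → ℝ}
    (hσ : ContDiff ℝ ∞ σ) (hσp : ∀ x, 0 < σ x) (hv : ContDiff ℝ ∞ v) (hv1 : ∀ x ∉ Ω, v x = 1)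
    (h : ∀ x ∈ Ω, ∑ i, pd i (fun y => ((σ y * pd i v y : ℝ) : ℂ)) x = 0) : ∀ x, v x = 1 := by
  have hG : ∀ j, ContDiff ℝ ∞ fun y => ((σ y * pd j v y : ℝ) : ℂ) := fun j =>
    contDiff_ofReal (hσ.mul (contDiff_pdR hv j))
  have hψ : ContDiff ℝ ∞ fun y => ((v y - 1 : ℝ) : ℂ) := contDiff_ofReal (hv.sub contDiff_const)
  have h1 := H924.ibp_gen (Ω := univ) isCompact_core (subset_univ _) hG hψ
    (fun x hx => by
      have : x ∉ Ω := fun hh => hx (hΩc hh)
      rw [hv1 x this, sub_self, Complex.ofReal_zero])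
  have h2 : ∀ x, (∑ j, pd j (fun y => ((σ y * pd j v y : ℝ) : ℂ)) x) * ((v x - 1 : ℝ) : ℂ) = 0 := by
    intro x
    by_cases hx : x ∈ Ω
    · rw [h x hx, zero_mul]
    · rw [hv1 x hx, sub_self, Complex.ofReal_zero, mul_zero]
  simp only [h2, integral_zero, neg_zero] at h1
  have hpd : ∀ j x, pd j (fun y => ((v y - 1 : ℝ) : ℂ)) x = ((pd j v x : ℝ) : ℂ) := by
    intro j x
    rw [pd_ofReal (hv.sub contDiff_const), pd_sub (dfa hv x) (dfa contDiff_const x) j,
      pd_const, sub_zero]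
  set e : V n → ℝ := fun x => ∑ j, σ x * pd j v x * pd j v x with he
  have h3 : ∫ x, e x = 0 := by
    have h4 : ∫ x in univ, ((e x : ℝ) : ℂ) = 0 := by
      rw [← h1]
      refine integral_congr_ae (Eventually.of_forall fun x => ?_)
      simp only [he, hpd]
      push_cast
      rfl
    rw [Measure.restrict_univ, integral_complex_ofReal] at h4
    exact_mod_cast h4
  have hec : Continuous e := by
    rw [he]
    exact continuous_finsetSum _ fun j _ =>
      (hσ.continuous.mul (contDiff_pdR hv j).continuous).mul (contDiff_pdR hv j).continuous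
  have he0 : ∀ x, 0 ≤ e x := fun x => Finset.sum_nonneg fun j _ => by
    rw [mul_assoc]; exact mul_nonneg (hσp x).le (mul_self_nonneg _)
  have hpz : ∀ x ∉ core n, ∀ j, pd j v x = 0 := by
    intro x hx j
    have : v =ᶠ[𝓝 x] fun _ => (1 : ℝ) := by
      filter_upwards [isCompact_core.isClosed.isOpen_compl.mem_nhds hx] with y hy
      exact hv1 y fun hh => hy (hΩc hh)
    unfold pd
    rw [this.fderiv_eq]
    simp
  have hcs : HasCompactSupport e := HasCompactSupport.intro isCompact_core fun x hx => by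
    simp only [he, hpz x hx, mul_zero, Finset.sum_const_zero]
  have h5 : e = 0 := by
    have h6 := (integral_eq_zero_iff_of_nonneg he0
      (hec.integrable_of_hasCompactSupport hcs)).1 h3
    exact Continuous.ae_eq_iff_eq volume hec continuous_zero |>.1 h6
  have h7 : ∀ x j, pd j v x = 0 := by
    intro x j
    have h8 : e x = 0 := congrFun h5 x
    have h9 := (Finset.sum_eq_zero_iff_of_nonneg (fun j _ => by
      rw [mul_assoc]; exact mul_nonneg (hσp x).le (mul_self_nonneg _))).1 h8 j (Finset.mem_univ j)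
    rw [mul_assoc] at h9
    have h10 := (mul_eq_zero.1 h9).resolve_left (hσp x).ne'
    exact mul_self_eq_zero.1 h10
  have h11 : ∀ x, fderiv ℝ v x = 0 := by
    intro x
    ext w
    have hw : w = ∑ j, w j • (Pi.single j (1 : ℝ) : V n) := by
      funext k
      simp [Finset.sum_apply, Pi.single_apply]
    rw [hw, map_sum]
    refine (Finset.sum_eq_zero fun j _ => ?_).trans rfl
    rw [map_smul]
    have := h7 x j
    unfold pd at this
    rw [this, smul_zero]
  intro x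
  have i₀ : Fin n := ⟨0, hn⟩
  have h12 := is_const_of_fderiv_eq_zero (𝕜 := ℝ) (dfa' hv) h11 x (fun _ => 0)
  rw [h12]
  refine hv1 _ fun hh => ?_
  have h13 := (hΩc hh i₀).1
  norm_num at h13
where
  dfa' {v : V n → ℝ} (hv : ContDiff ℝ ∞ v) : Differentiable ℝ v := hv.differentiable (by simp)

/-! ### the algebra of the frame -/

/-- `K_j` is quadratic: real scalar factors come out. -/
theorem KF_smul (A : Cn n N) {v : V n → ℝ} (hv : ContDiff ℝ ∞ v) {F : MC n N} (hF : SmC F)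
    (j : Fin n) (x : V n) :
    KF A (fun x => ((v x : ℝ) : ℂ) • F x) j x = ((v x : ℝ) : ℂ) ^ 2 • KF A F j x := by
  unfold KF
  rw [cdC_smul A (contDiff_ofReal hv) hF, pd_ofReal hv]
  simp only [Matrix.conjTranspose_add, Matrix.conjTranspose_smul, Complex.star_def,
    Complex.conj_ofReal, Matrix.mul_add, Matrix.add_mul, Matrix.smul_mul, Matrix.mul_smul,
    smul_add, smul_sub, smul_smul]
  have e1 : ((v x : ℝ) : ℂ) * ((pd j v x : ℝ) : ℂ) = ((pd j v x : ℝ) : ℂ) * ((v x : ℝ) : ℂ) :=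
    mul_comm _ _
  rw [e1, pow_two]
  abel

/-- `K_j` of `W F₁`, `W` unitary. -/
theorem KF_gauge {A : Cn n N} (hA : SmU A) {W : MC n N} (hW : SmC W)
    (hWu : ∀ x, (W x)ᴴ * W x = 1) {F₁ : MC n N} (hF₁ : SmC F₁) (j : Fin n) (x : V n) :
    KF A (fun x => W x * F₁ x) j x =
      (2 : ℂ) • ((F₁ x)ᴴ * ((W x)ᴴ * (pdm j W x + A j x * W x)) * F₁ x) +
        ((F₁ x)ᴴ * pdm j F₁ x - (pdm j F₁ x)ᴴ * F₁ x) := by
  have hB : (pdm j W x + A j x * W x)ᴴ * W x = -((W x)ᴴ * (pdm j W x + A j x * W x)) := by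
    have h1 : (pdm j W x)ᴴ * W x + (W x)ᴴ * pdm j W x = 0 := by
      have h2 := pdm_mul (SmC_star hW) hW j x
      have h3 : (fun x => (W x)ᴴ * W x) = fun _ => (1 : Matrix (Fin N) (Fin N) ℂ) := funext hWu
      rw [h3, pdm_const, pdm_star hW] at h2
      exact h2.symm
    have h4 : (A j x * W x)ᴴ * W x + (W x)ᴴ * (A j x * W x) = 0 := by
      rw [Matrix.conjTranspose_mul, hA.2 j x, Matrix.mul_neg, Matrix.neg_mul, Matrix.mul_assoc,
        neg_add_cancel]
    rw [Matrix.conjTranspose_add, Matrix.add_mul, Matrix.mul_add, eq_neg_iff_add_eq_zero]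
    calc (pdm j W x)ᴴ * W x + (A j x * W x)ᴴ * W x +
          ((W x)ᴴ * pdm j W x + (W x)ᴴ * (A j x * W x))
        = ((pdm j W x)ᴴ * W x + (W x)ᴴ * pdm j W x) +
          ((A j x * W x)ᴴ * W x + (W x)ᴴ * (A j x * W x)) := by abel
      _ = 0 := by rw [h1, h4, add_zero]
  have hc : cdC A j (fun x => W x * F₁ x) x =
      (pdm j W x + A j x * W x) * F₁ x + W x * pdm j F₁ x := by
    unfold cdC
    rw [pdm_mul hW hF₁, ← Matrix.mul_assoc, add_right_comm, ← Matrix.add_mul]
  unfold KF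
  rw [hc]
  set Z := pdm j W x + A j x * W x with hZ
  set D := pdm j F₁ x with hD
  have e1 : (W x * F₁ x)ᴴ * (Z * F₁ x + W x * D) =
      (F₁ x)ᴴ * ((W x)ᴴ * Z) * F₁ x + (F₁ x)ᴴ * D := by
    rw [Matrix.conjTranspose_mul, Matrix.mul_add]
    congr 1
    · simp only [Matrix.mul_assoc]
    · rw [← Matrix.mul_assoc, Matrix.mul_assoc (F₁ x)ᴴ, hWu x, Matrix.mul_one]
  have e2 : (Z * F₁ x + W x * D)ᴴ * (W x * F₁ x) =
      (F₁ x)ᴴ * (Zᴴ * W x) * F₁ x + Dᴴ * F₁ x := by
    rw [Matrix.conjTranspose_add, Matrix.conjTranspose_mul, Matrix.conjTranspose_mul,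
      Matrix.add_mul]
    congr 1
    · simp only [Matrix.mul_assoc]
    · rw [← Matrix.mul_assoc, Matrix.mul_assoc Dᴴ, hWu x, Matrix.mul_one]
  rw [e1, e2, hB, Matrix.mul_neg, Matrix.neg_mul, two_smul]
  abel

theorem tr_PF_pos (hN : 1 ≤ N) {F : Matrix (Fin N) (Fin N) ℂ} (hF : IsUnit F.det) :
    0 < (Fᴴ * F).trace.re ∧ (Fᴴ * F).trace.im = 0 := by
  have h1 : (Fᴴ * F).trace = ((∑ b, ∑ a, ‖F a b‖ ^ 2 : ℝ) : ℂ) := by
    rw [Matrix.trace]
    push_cast
    refine Finset.sum_congr rfl fun b _ => ?_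
    rw [Matrix.diag_apply, Matrix.mul_apply]
    refine Finset.sum_congr rfl fun a _ => ?_
    rw [Matrix.conjTranspose_apply, Complex.star_def, Complex.conj_mul']
  rw [h1, Complex.ofReal_re, Complex.ofReal_im]
  refine ⟨?_, rfl⟩
  have h2 : F ≠ 0 := by
    rintro rfl
    have : Nonempty (Fin N) := ⟨⟨0, hN⟩⟩
    rw [Matrix.det_zero] at hF
    exact not_isUnit_zero hF
  have h3 : ∃ a b, F a b ≠ 0 := by
    by_contra h
    push Not at h
    exact h2 (by ext a b; exact h a b)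
  obtain ⟨a, b, hab⟩ := h3
  refine Finset.sum_pos' (fun b _ => Finset.sum_nonneg fun a _ => by positivity)
    ⟨b, Finset.mem_univ b, Finset.sum_pos' (fun a _ => by positivity) ⟨a, Finset.mem_univ a, ?_⟩⟩
  have := norm_pos_iff.2 hab
  positivity

end Vale.Agent.P088.H705.UFin

namespace Vale.Agent.P088.H705

open Vale.Agent.P088.LR Vale.Agent.P088.LR.H158 Vale.Agent.P088.LR.CF Vale.Agent.P088.LR.U UFin

/-- **Row U_FIN.** -/
theorem ufin : RowFINU := by
  intro n N hn hN Ω hΩ hΩc σ s hσ hσp hs hsym hs1 A₁ A hA₁ hA hAA F₁ F hF₁ hF hu₁ hu hFF hL₁ hL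
    hT hκ
  have i₀ : Fin n := ⟨0, hn⟩
  -- the trace of `F* F`
  have hp := fun x => tr_PF_pos hN (hu x)
  have hp₁ := fun x => tr_PF_pos hN (hu₁ x)
  -- `s = m · 1`
  have hTr : ∀ i j x, s x i j * ((F x)ᴴ * F x).trace.re =
      sc σ x i j * ((F₁ x)ᴴ * F₁ x).trace.re := by
    intro i j x
    have h1 := congrArg (fun M => M.trace.re) (hT i j x)
    simp only [TF, PF, Matrix.trace_smul, smul_eq_mul, Complex.re_ofReal_mul] at h1
    exact h1
  set m : V n → ℝ := fun x => s x i₀ i₀ with hm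
  have hsc : ∀ x i j, sc σ x i j = if i = j then σ x else 0 := by
    intro x i j
    simp only [sc, Matrix.smul_apply, Matrix.one_apply, smul_eq_mul, mul_ite, mul_one, mul_zero]
  have hsm : ∀ x i j, s x i j = if i = j then m x else 0 := by
    intro x i j
    by_cases h : i = j
    · subst h
      rw [if_pos rfl]
      have h1 := hTr i i x
      have h2 := hTr i₀ i₀ x
      rw [hsc, if_pos rfl] at h1 h2
      exact mul_right_cancel₀ (hp x).1.ne' (h1.trans h2.symm)
    · rw [if_neg h]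
      have h1 := hTr i j x
      rw [hsc, if_neg h, zero_mul] at h1
      exact (mul_eq_zero.1 h1).resolve_right (hp x).1.ne'
  have hmt : ∀ x, m x * ((F x)ᴴ * F x).trace.re = σ x * ((F₁ x)ᴴ * F₁ x).trace.re := by
    intro x
    have h2 := hTr i₀ i₀ x
    rwa [hsc, if_pos rfl] at h2
  have hmp : ∀ x, 0 < m x := by
    intro x
    have h1 : 0 < m x * ((F x)ᴴ * F x).trace.re := by
      rw [hmt]; exact mul_pos (hσp x) (hp₁ x).1
    exact pos_of_mul_pos_left h1 (hp x).1.le
  -- the factor `v`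
  set v : V n → ℝ := fun x => √(m x / σ x) with hv
  have hmd : ContDiff ℝ ∞ m := hs i₀ i₀
  have hvp : ∀ x, 0 < v x := fun x => Real.sqrt_pos.2 (div_pos (hmp x) (hσp x))
  have hvd : ContDiff ℝ ∞ v := (hmd.div hσ fun x => (hσp x).ne').sqrt
    fun x => (div_pos (hmp x) (hσp x)).ne'
  have hv2 : ∀ x, σ x * v x ^ 2 = m x := by
    intro x
    rw [hv]
    simp only []
    rw [Real.sq_sqrt (div_pos (hmp x) (hσp x)).le, mul_div_cancel₀ _ (hσp x).ne']
  have hv1 : ∀ x ∉ Ω, v x = 1 := by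
    intro x hx
    have h1 : m x = σ x := by
      rw [hm]
      simp only []
      rw [hs1 x hx, hsc, if_pos rfl]
    rw [hv]
    simp only []
    rw [h1, div_self (hσp x).ne', Real.sqrt_one]
  have hvC : ContDiff ℝ ∞ fun x => ((v x : ℝ) : ℂ) := contDiff_ofReal hvd
  have hσC : ContDiff ℝ ∞ fun x => ((σ x : ℝ) : ℂ) := contDiff_ofReal hσ
  -- `v² F* F = F₁* F₁`
  have hPP : ∀ x, ((v x : ℝ) : ℂ) ^ 2 • ((F x)ᴴ * F x) = (F₁ x)ᴴ * F₁ x := by
    intro x
    have h1 := hT i₀ i₀ x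
    simp only [TF, PF] at h1
    rw [hsc, if_pos rfl] at h1
    have h2 : (s x i₀ i₀ : ℂ) = ((σ x : ℝ) : ℂ) * ((v x : ℝ) : ℂ) ^ 2 := by
      rw [← Complex.ofReal_pow, ← Complex.ofReal_mul, hv2 x]
    rw [h2, mul_smul] at h1
    exact smul_right_injective _ (Complex.ofReal_ne_zero.2 (hσp x).ne') h1
  -- the unitary gauge
  set W : MC n N := fun x => ((v x : ℝ) : ℂ) • (F x * (F₁ x)⁻¹) with hW
  have hWs : SmC W := SmC_smul hvC (SmC_mul hF (SmC_inv hF₁ hu₁))
  have hWF : ∀ x, W x * F₁ x = ((v x : ℝ) : ℂ) • F x := by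
    intro x
    rw [hW]
    simp only [Matrix.smul_mul, Matrix.mul_assoc]
    rw [Matrix.nonsing_inv_mul _ (hu₁ x), Matrix.mul_one]
  have hWu : ∀ x, (W x)ᴴ * W x = 1 := by
    intro x
    have h1 : (F₁ x)ᴴ * ((W x)ᴴ * W x) * F₁ x = (F₁ x)ᴴ * 1 * F₁ x := by
      calc (F₁ x)ᴴ * ((W x)ᴴ * W x) * F₁ x = (W x * F₁ x)ᴴ * (W x * F₁ x) := by
            rw [Matrix.conjTranspose_mul]
            simp only [Matrix.mul_assoc]
        _ = ((v x : ℝ) : ℂ) ^ 2 • ((F x)ᴴ * F x) := by
            rw [hWF x, Matrix.conjTranspose_smul, Matrix.smul_mul, Matrix.mul_smul, smul_smul,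
              Complex.star_def, Complex.conj_ofReal, pow_two]
        _ = _ := by rw [hPP x, Matrix.mul_one]
    have hu₁' : IsUnit (F₁ x)ᴴ.det := by
      rw [Matrix.det_conjTranspose]
      exact (hu₁ x).star
    have h2 := congrArg (fun M => ((F₁ x)ᴴ)⁻¹ * M * (F₁ x)⁻¹) h1
    rw [Matrix.mul_assoc (F₁ x)ᴴ, Matrix.mul_assoc (F₁ x)ᴴ, ← Matrix.mul_assoc ((F₁ x)ᴴ)⁻¹,
      ← Matrix.mul_assoc ((F₁ x)ᴴ)⁻¹, Matrix.nonsing_inv_mul _ hu₁', Matrix.one_mul,
      Matrix.one_mul, Matrix.mul_assoc, Matrix.mul_assoc, Matrix.mul_nonsing_inv _ (hu₁ x),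
      Matrix.mul_one, Matrix.one_mul, Matrix.mul_nonsing_inv _ (hu₁ x)] at h2
    exact h2
  have hWu' : ∀ x, W x * (W x)ᴴ = 1 := fun x => mul_eq_one_comm.1 (hWu x)
  -- the connection
  have hWA : ∀ i x, pdm i W x + A i x * W x = W x * A₁ i x := by
    intro i x
    have h1 : KF A (fun x => W x * F₁ x) i x = KF A₁ F₁ i x := by
      have h2 : (fun x => W x * F₁ x) = fun x => ((v x : ℝ) : ℂ) • F x := funext hWF
      rw [h2, KF_smul A hvd hF]
      have h3 := hκ i x
      simp only [qF] at h3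
      have h4 : ∑ j, (s x i j : ℂ) • KF A F j x = (m x : ℂ) • KF A F i x := by
        rw [Finset.sum_eq_single i]
        · rw [hsm, if_pos rfl]
        · intro j _ hj
          rw [hsm, if_neg (Ne.symm hj), Complex.ofReal_zero, zero_smul]
        · intro h; exact absurd (Finset.mem_univ i) h
      have h5 : ∑ j, (sc σ x i j : ℂ) • KF A₁ F₁ j x = (σ x : ℂ) • KF A₁ F₁ i x := by
        rw [Finset.sum_eq_single i]
        · rw [hsc, if_pos rfl]
        · intro j _ hj
          rw [hsc, if_neg (Ne.symm hj), Complex.ofReal_zero, zero_smul]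
        · intro h; exact absurd (Finset.mem_univ i) h
      rw [h4, h5, ← hv2 x, Complex.ofReal_mul, Complex.ofReal_pow, mul_smul] at h3
      exact smul_right_injective _ (Complex.ofReal_ne_zero.2 (hσp x).ne') h3
    rw [KF_gauge hA hWs hWu hF₁] at h1
    have h6 : KF A₁ F₁ i x = (2 : ℂ) • ((F₁ x)ᴴ * A₁ i x * F₁ x) +
        ((F₁ x)ᴴ * pdm i F₁ x - (pdm i F₁ x)ᴴ * F₁ x) := by
      unfold KF cdC
      rw [Matrix.mul_add, Matrix.conjTranspose_add, Matrix.add_mul, Matrix.conjTranspose_mul,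
        hA₁.2 i x, Matrix.mul_neg, Matrix.neg_mul, two_smul, Matrix.mul_assoc (F₁ x)ᴴ]
      abel
    rw [h6, add_left_inj] at h1
    have h7 := smul_right_injective _ (two_ne_zero (α := ℂ)) h1
    have hu₁' : IsUnit (F₁ x)ᴴ.det := by
      rw [Matrix.det_conjTranspose]
      exact (hu₁ x).star
    have h8 := congrArg (fun M => ((F₁ x)ᴴ)⁻¹ * M * (F₁ x)⁻¹) h7
    rw [Matrix.mul_assoc (F₁ x)ᴴ, Matrix.mul_assoc (F₁ x)ᴴ, ← Matrix.mul_assoc ((F₁ x)ᴴ)⁻¹,
      ← Matrix.mul_assoc ((F₁ x)ᴴ)⁻¹, Matrix.nonsing_inv_mul _ hu₁', Matrix.one_mul,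
      Matrix.one_mul, Matrix.mul_assoc, Matrix.mul_assoc (A₁ i x),
      Matrix.mul_nonsing_inv _ (hu₁ x), Matrix.mul_one, Matrix.mul_one] at h8
    rw [← h8, ← Matrix.mul_assoc, hWu' x, Matrix.one_mul]
  -- the equation for `v`
  have hvE : ∀ x ∈ Ω, ∑ i, pd i (fun y => ((σ y * pd i v y : ℝ) : ℂ)) x = 0 := by
    intro x hx
    have hG : ∀ i, SmC (fun y => ((σ y : ℝ) : ℂ) • cdC A₁ i F₁ y) := fun i =>
      SmC_smul hσC (SmC_cdC hA₁ hF₁ i)
    have hc : ∀ i, ContDiff ℝ ∞ fun y => ((σ y * pd i v y : ℝ) : ℂ) := fun i =>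
      contDiff_ofReal (hσ.mul (contDiff_pdR hvd i))
    -- the flux of `F`
    have hfl : ∀ i, flC s A F i = fun y => W y *
        (((v y : ℝ) : ℂ) • (((σ y : ℝ) : ℂ) • cdC A₁ i F₁ y) -
          ((σ y * pd i v y : ℝ) : ℂ) • F₁ y) := by
      intro i
      funext y
      have h1 : flC s A F i y = (m y : ℂ) • cdC A i F y := by
        unfold flC
        rw [Finset.sum_eq_single i]
        · rw [hsm, if_pos rfl]
        · intro j _ hj
          rw [hsm, if_neg (Ne.symm hj), Complex.ofReal_zero, zero_smul]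
        · intro h; exact absurd (Finset.mem_univ i) h
      have h2 : cdC A i (fun y => W y * F₁ y) y = W y * cdC A₁ i F₁ y :=
        cdC_gauge hWs (hWA i) hF₁ y
      have h3 : (fun y => W y * F₁ y) = fun y => ((v y : ℝ) : ℂ) • F y := funext hWF
      rw [h3, cdC_smul A hvC hF, pd_ofReal hvd] at h2
      have h4 : ((v y : ℝ) : ℂ) • cdC A i F y =
          W y * cdC A₁ i F₁ y - ((pd i v y : ℝ) : ℂ) • F y := by
        rw [← h2]; abel
      rw [h1, ← hv2 y]
      have e1 : (((σ y * v y ^ 2 : ℝ)) : ℂ) • cdC A i F y =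
          ((σ y : ℝ) : ℂ) • ((v y : ℝ) : ℂ) • (((v y : ℝ) : ℂ) • cdC A i F y) := by
        rw [smul_smul, smul_smul]
        congr 1
        push_cast
        ring
      rw [e1, h4]
      simp only [smul_sub, Matrix.mul_sub, Matrix.mul_smul]
      congr 1
      · rw [smul_comm]
      · rw [hWF y, smul_smul, smul_smul, smul_smul]
        congr 1
        push_cast
        ring
    have hfl₁ : ∀ i, flC (sc σ) A₁ F₁ i = fun y => ((σ y : ℝ) : ℂ) • cdC A₁ i F₁ y := by
      intro i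
      funext y
      unfold flC
      rw [Finset.sum_eq_single i]
      · rw [hsc, if_pos rfl]
      · intro j _ hj
        rw [hsc, if_neg (Ne.symm hj), Complex.ofReal_zero, zero_smul]
      · intro h; exact absurd (Finset.mem_univ i) h
    have h5 := hL x hx
    have h6 := hL₁ x hx
    unfold LaC at h5 h6
    have h7 : ∀ i, cdC A i (flC s A F i) x = W x *
        (((v x : ℝ) : ℂ) • cdC A₁ i (flC (sc σ) A₁ F₁ i) x -
          pd i (fun y => ((σ y * pd i v y : ℝ) : ℂ)) x • F₁ x) := by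
      intro i
      rw [hfl i, cdC_gauge hWs (hWA i) (SmC_sub (SmC_smul hvC (hG i)) (SmC_smul (hc i) hF₁)),
        cdC_sub A₁ (SmC_smul hvC (hG i)) (SmC_smul (hc i) hF₁), cdC_smul A₁ hvC (hG i),
        cdC_smul A₁ (hc i) hF₁, hfl₁ i, pd_ofReal hvd]
      congr 1
      have e2 : ((pd i v x : ℝ) : ℂ) • (((σ x : ℝ) : ℂ) • cdC A₁ i F₁ x) =
          (((σ x * pd i v x : ℝ)) : ℂ) • cdC A₁ i F₁ x := by
        rw [smul_smul]
        congr 1
        push_cast
        ring
      rw [e2]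
      abel
    rw [Finset.sum_congr rfl fun i _ => h7 i, ← Finset.mul_sum, Finset.sum_sub_distrib,
      ← Finset.smul_sum, h6, smul_zero, zero_sub, ← Finset.sum_smul] at h5
    have h8 := congrArg (fun M => (W x)ᴴ * M * (F₁ x)⁻¹) h5
    rw [← Matrix.mul_assoc, hWu x, Matrix.one_mul, Matrix.neg_mul, Matrix.smul_mul,
      Matrix.mul_nonsing_inv _ (hu₁ x), Matrix.mul_zero, Matrix.zero_mul, neg_eq_zero] at h8
    have a₀ : Fin N := ⟨0, hN⟩
    have h9 := congrFun (congrFun h8 a₀) a₀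
    rw [Matrix.smul_apply, Matrix.one_apply_eq, smul_eq_mul, mul_one, Matrix.zero_apply] at h9
    exact h9
  have hv1' := v_eq_one hn hΩc hσ hσp hvd hv1 hvE
  refine ⟨fun x => ?_, fun x => (W x)ᴴ, SmC_star hWs, fun x => ?_, fun x hx => ?_, fun i x => ?_⟩
  · have h1 : m x = σ x := by
      have := hv2 x
      rw [hv1' x, one_pow, mul_one] at this
      exact this.symm
    ext i j
    rw [hsm, hsc, h1]
  · rw [Matrix.conjTranspose_conjTranspose]
    exact hWu' x
  · have h1 : W x = 1 := by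
      rw [hW]
      simp only []
      rw [hv1 x hx, hFF x hx, Complex.ofReal_one, one_smul, Matrix.mul_nonsing_inv _ (hu₁ x)]
    change (W x)ᴴ = 1
    rw [h1, Matrix.conjTranspose_one]
  · rw [Matrix.conjTranspose_conjTranspose, pdm_star hWs]
    have h1 := hWA i x
    have h2 : W x * (pdm i W x)ᴴ = -(pdm i W x * (W x)ᴴ) := by
      have h3 := pdm_mul hWs (SmC_star hWs) i x
      have h4 : (fun x => W x * (W x)ᴴ) = fun _ => (1 : Matrix (Fin N) (Fin N) ℂ) := funext hWu'
      rw [h4, pdm_const, pdm_star hWs] at h3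
      exact (neg_eq_of_add_eq_zero_right h3.symm).symm
    rw [h2, ← h1, Matrix.add_mul, Matrix.mul_assoc (A i x), hWu' x, Matrix.mul_one]
    abel

end Vale.Agent.P088.H705
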