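import Vale.Agent.P088.H72.B.Defs

/-!
# P088, stage 2: row CUT
-/

open MeasureTheory Set
open scoped ContDiff Matrix Nat

noncomputable section

namespace Vale.Agent.P088.LR.B.H705

open Vale.Agent.P088.LR Vale.Agent.P088.LR.B

theorem isCompact_core {n : ℕ} : IsCompact (core n) := by
  have : core n = Icc (fun _ => (1 / 4 : ℝ)) (fun _ => 3 / 4) := by
    ext x
    simp only [core, Set.mem_ofPred_eq, mem_Icc, Pi.le_def, ← forall_and]
  rw [this]
  exact isCompact_Icc

/-- a common bound for the derivatives of order `≤ k` of a smooth function on a compact set -/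
theorem exists_bound {n : ℕ} {S : Set (V n)} (hS : IsCompact S) {f : V n → ℝ}
    (hf : ContDiff ℝ ∞ f) (k : ℕ) :
    ∃ B : ℝ, 1 ≤ B ∧ ∀ l ≤ k, ∀ x ∈ S, ‖iteratedFDeriv ℝ l f x‖ ≤ B := by
  induction k with
  | zero =>
    obtain ⟨B, hB⟩ := hS.exists_bound_of_continuousOn
      (hf.continuous_iteratedFDeriv (m := 0) (by simp)).continuousOn
    refine ⟨max B 1, le_max_right _ _, fun l hl x hx => ?_⟩
    obtain rfl : l = 0 := by omega
    exact (hB x hx).trans (le_max_left _ _)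
  | succ k ih =>
    obtain ⟨B, hB1, hB⟩ := ih
    obtain ⟨B', hB'⟩ := hS.exists_bound_of_continuousOn
      (hf.continuous_iteratedFDeriv (m := k + 1) (by exact_mod_cast le_top)).continuousOn
    refine ⟨max B B', hB1.trans (le_max_left _ _), fun l hl x hx => ?_⟩
    rcases Nat.lt_or_ge l (k + 1) with h | h
    · exact (hB l (by omega) x hx).trans (le_max_left _ _)
    · obtain rfl : l = k + 1 := by omega
      exact (hB' x hx).trans (le_max_right _ _)

/-- a smooth function of compact support has bounded derivatives -/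
theorem exists_bound_cpt {K : ℝ → ℝ} (hK : ContDiff ℝ ∞ K) (hc : HasCompactSupport K) (k : ℕ) :
    ∃ C : ℝ, 1 ≤ C ∧ ∀ l ≤ k, ∀ t, ‖iteratedFDeriv ℝ l K t‖ ≤ C := by
  induction k with
  | zero =>
    obtain ⟨B, hB⟩ := (hc.iteratedFDeriv (𝕜 := ℝ) 0).exists_bound_of_continuous
      (hK.continuous_iteratedFDeriv (m := 0) (by simp))
    refine ⟨max B 1, le_max_right _ _, fun l hl x => ?_⟩
    obtain rfl : l = 0 := by omega
    exact (hB x).trans (le_max_left _ _)
  | succ k ih =>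
    obtain ⟨B, hB1, hB⟩ := ih
    obtain ⟨B', hB'⟩ := (hc.iteratedFDeriv (𝕜 := ℝ) (k + 1)).exists_bound_of_continuous
      (hK.continuous_iteratedFDeriv (m := k + 1) (by exact_mod_cast le_top))
    refine ⟨max B B', hB1.trans (le_max_left _ _), fun l hl x => ?_⟩
    rcases Nat.lt_or_ge l (k + 1) with h | h
    · exact (hB l (by omega) x).trans (le_max_left _ _)
    · obtain rfl : l = k + 1 := by omega
      exact (hB' x).trans (le_max_right _ _)

/-- the estimate of the cut-off function -/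
theorem cut_est {n : ℕ} {ρ Q : V n → ℝ} {K : ℝ → ℝ} (hρ : ContDiff ℝ ∞ ρ) (hQ : ContDiff ℝ ∞ Q)
    (hK : ContDiff ℝ ∞ K) {k : ℕ} {B C : ℝ} (hB1 : 1 ≤ B) (hC1 : 1 ≤ C) {x : V n}
    (hρB : ∀ l ≤ k, ‖iteratedFDeriv ℝ l ρ x‖ ≤ B) (hQB : ∀ l ≤ k, ‖iteratedFDeriv ℝ l Q x‖ ≤ B)
    (hKC : ∀ l ≤ k, ∀ t, ‖iteratedFDeriv ℝ l K t‖ ≤ C) {e : ℝ} (he : 0 < e) (he1 : e ≤ 1) {l : ℕ}
    (hl : l ≤ k) :
    ‖iteratedFDeriv ℝ l (fun y => e ^ (k + 1) * (K (ρ y / e) * Q y)) x‖ ≤
      e * (2 ^ k * (k ! * C * B ^ k) * B) := by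
  have hB0 : 0 < B := by linarith
  have hg : ContDiff ℝ ∞ (fun y => ρ y / e) := hρ.div_const e
  have hKg : ContDiff ℝ ∞ (fun y => K (ρ y / e)) := hK.comp hg
  have hBe : 1 ≤ B / e := by
    rw [le_div_iff₀ he]
    linarith
  -- derivatives of `ρ / e`
  have h1 : ∀ i, 1 ≤ i → i ≤ k → ‖iteratedFDeriv ℝ i (fun y => ρ y / e) x‖ ≤ (B / e) ^ i := by
    intro i hi hik
    have e1 : (fun y => ρ y / e) = fun y => e⁻¹ • ρ y := by
      ext y
      rw [smul_eq_mul, div_eq_inv_mul]
    rw [e1, iteratedFDeriv_const_smul_apply' (hρ.contDiffAt.of_le (by exact_mod_cast le_top)),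
      norm_smul, Real.norm_of_nonneg (by positivity)]
    calc e⁻¹ * ‖iteratedFDeriv ℝ i ρ x‖ ≤ e⁻¹ * B := by
          gcongr
          exact hρB i hik
      _ = (B / e) ^ 1 := by rw [pow_one]; ring
      _ ≤ (B / e) ^ i := pow_le_pow_right₀ hBe hi
  -- derivatives of the composition
  have h2 : ∀ i ≤ k, ‖iteratedFDeriv ℝ i (fun y => K (ρ y / e)) x‖ ≤
      k ! * C * B ^ k / e ^ k := by
    intro i hi
    have h3 := norm_iteratedFDeriv_comp_le (𝕜 := ℝ) (n := i) (N := ∞) hK hg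
      (by exact_mod_cast le_top) x (C := C) (D := B / e) (fun j hj => hKC j (hj.trans hi) _)
      (fun j hj1 hj2 => h1 j hj1 (hj2.trans hi))
    refine h3.trans ?_
    have h4 : (i ! : ℝ) ≤ k ! := by exact_mod_cast Nat.factorial_le hi
    have h5 : (B / e) ^ i ≤ (B / e) ^ k := pow_le_pow_right₀ hBe hi
    calc (i ! : ℝ) * C * (B / e) ^ i ≤ k ! * C * (B / e) ^ k := by gcongr
      _ = k ! * C * B ^ k / e ^ k := by rw [div_pow]; ring
  -- the product
  have h6 : ‖iteratedFDeriv ℝ l (fun y => K (ρ y / e) * Q y) x‖ ≤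
      2 ^ k * (k ! * C * B ^ k / e ^ k) * B := by
    have h7 := norm_iteratedFDeriv_mul_le (𝕜 := ℝ) (N := ∞) hKg hQ x (n := l)
      (by exact_mod_cast le_top)
    refine h7.trans ?_
    have h8 : ∀ i ∈ Finset.range (l + 1), (l.choose i : ℝ) *
        ‖iteratedFDeriv ℝ i (fun y => K (ρ y / e)) x‖ * ‖iteratedFDeriv ℝ (l - i) Q x‖ ≤
        (l.choose i : ℝ) * ((k ! * C * B ^ k / e ^ k) * B) := by
      intro i hi
      rw [Finset.mem_range] at hi
      rw [mul_assoc]
      gcongr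
      · exact h2 i (by omega)
      · exact hQB _ (by omega)
    refine (Finset.sum_le_sum h8).trans ?_
    rw [← Finset.sum_mul]
    have h9 : (∑ i ∈ Finset.range (l + 1), (l.choose i : ℝ)) = 2 ^ l := by
      exact_mod_cast Nat.sum_range_choose l
    rw [h9]
    have h10 : (2 : ℝ) ^ l ≤ 2 ^ k := pow_le_pow_right₀ (by norm_num) hl
    calc (2 : ℝ) ^ l * ((k ! * C * B ^ k / e ^ k) * B) ≤
          2 ^ k * ((k ! * C * B ^ k / e ^ k) * B) := by gcongr
      _ = _ := by ring
  have e2 : (fun y => e ^ (k + 1) * (K (ρ y / e) * Q y)) =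
      fun y => e ^ (k + 1) • (K (ρ y / e) * Q y) := rfl
  rw [e2, iteratedFDeriv_const_smul_apply'
    ((hKg.mul hQ).contDiffAt.of_le (by exact_mod_cast le_top)), norm_smul,
    Real.norm_of_nonneg (by positivity)]
  calc e ^ (k + 1) * ‖iteratedFDeriv ℝ l (fun y => K (ρ y / e) * Q y) x‖
      ≤ e ^ (k + 1) * (2 ^ k * (k ! * C * B ^ k / e ^ k) * B) := by gcongr
    _ = e * (2 ^ k * (k ! * C * B ^ k) * B) := by
        rw [pow_succ]
        field_simp

/-- **Row CUT** -/
theorem cut : RowCUT := by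
  intro n ρ hρ k Q hQ ε hε
  set χ : ContDiffBump (0 : ℝ) := ⟨1 / 2, 1, by norm_num, by norm_num⟩ with hχ
  set K : ℝ → ℝ := fun t => χ t * t ^ (k + 1) with hKdef
  have hK : ContDiff ℝ ∞ K := χ.contDiff.mul (contDiff_id.pow (k + 1))
  have hKc : HasCompactSupport K := χ.hasCompactSupport.mul_right
  have hK1 : ∀ t, |t| ≤ 1 / 2 → K t = t ^ (k + 1) := by
    intro t ht
    have : χ t = 1 := χ.one_of_mem_closedBall (by
      rw [Metric.mem_closedBall, dist_zero_right]
      exact ht)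
    simp only [hKdef, this, one_mul]
  have hK0 : ∀ t, 1 ≤ |t| → K t = 0 := by
    intro t ht
    have : χ t = 0 := χ.zero_of_le_dist (by
      rw [dist_zero_right]
      exact ht)
    simp only [hKdef, this, zero_mul]
  obtain ⟨B₁, hB₁1, hB₁⟩ := exists_bound isCompact_core hρ.sm k
  obtain ⟨B₂, hB₂1, hB₂⟩ := exists_bound isCompact_core hQ k
  obtain ⟨C, hC1, hC⟩ := exists_bound_cpt hK hKc k
  set B := max B₁ B₂ with hB
  have hB1 : 1 ≤ B := hB₁1.trans (le_max_left _ _)
  set M : ℝ := 2 ^ k * (k ! * C * B ^ k) * B with hM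
  have hM0 : 0 < M := by positivity
  set e : ℝ := min (1 / 2) (ε / M) with he
  have he0 : 0 < e := lt_min (by norm_num) (by positivity)
  have he2 : e ≤ 1 / 2 := min_le_left _ _
  have heM : e * M ≤ ε := by
    calc e * M ≤ ε / M * M := by
          gcongr
          exact min_le_right _ _
      _ = ε := by field_simp
  refine ⟨fun y => e ^ (k + 1) * (K (ρ y / e) * Q y), ?_, ?_, ?_, e / 2, by positivity, ?_⟩
  · exact contDiff_const.mul ((hK.comp (hρ.sm.div_const e)).mul hQ)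
  · intro l hl x
    by_cases hx : x ∈ core n
    · exact (cut_est hρ.sm hQ hK hB1 hC1 (fun j hj => (hB₁ j hj x hx).trans (le_max_left _ _))
        (fun j hj => (hB₂ j hj x hx).trans (le_max_right _ _)) hC he0 (by linarith) hl).trans heM
    · -- the function vanishes near `x`
      have h1 : (fun y => e ^ (k + 1) * (K (ρ y / e) * Q y)) =ᶠ[nhds x] fun _ => 0 := by
        filter_upwards [isCompact_core.isClosed.isOpen_compl.mem_nhds hx] with y hy
        rw [hρ.off y hy, hK0 (-1 / e) ?_]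
        · ring
        · rw [abs_div, abs_of_pos he0, le_div_iff₀ he0]
          norm_num
          linarith
      rw [(h1.iteratedFDeriv ℝ l).eq_of_nhds]
      have h2 : iteratedFDeriv ℝ l (fun _ : V n => (0 : ℝ)) x = 0 := by
        have := iteratedFDeriv_fun_zero (𝕜 := ℝ) (E := V n) (F := ℝ) (n := l)
        exact congrFun this x
      rw [h2, norm_zero]
      exact hε.le
  · intro x hx
    show e ^ (k + 1) * (K (ρ x / e) * Q x) = 0
    rw [hx, zero_div, hK1 0 (by norm_num)]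
    simp
  · intro x hx
    show e ^ (k + 1) * (K (ρ x / e) * Q x) = ρ x ^ (k + 1) * Q x
    rw [hK1 (ρ x / e) ?_]
    · rw [div_pow]
      field_simp
    · rw [abs_div, abs_of_pos he0, div_le_iff₀ he0]
      linarith

end Vale.Agent.P088.LR.B.H705
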