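import Vale.Agent.P088.H833.StarPush
import Vale.Agent.P088.H198.Defs3

/-!
# P088, phase 2: row SV (the multiplicative gauge)
-/

open MeasureTheory Set
open scoped ContDiff Matrix

noncomputable section

namespace Vale.Agent.P088.LR.H705

open Vale.Agent.P088.LR

variable {n : ℕ}

/-- the pointwise bilinear form -/
def B (s : MF n) (u v : V n → ℂ) (x : V n) : ℂ := ∑ i, ∑ j, (s x i j : ℂ) * pd i u x * pd j v x

theorem bl_eq (Ω : Set (V n)) (s : MF n) (u v : V n → ℂ) : bl Ω s u v = ∫ x in Ω, B s u v x := rfl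

theorem pd_mul {u v : V n → ℂ} (hu : ContDiff ℝ ∞ u) (hv : ContDiff ℝ ∞ v) (i : Fin n) (x : V n) :
    pd i (fun y => u y * v y) x = pd i u x * v x + u x * pd i v x := by
  unfold pd
  rw [fderiv_fun_mul (hu.differentiable (by simp) x) (hv.differentiable (by simp) x)]
  simp [smul_eq_mul]
  ring

theorem B_flx (s : MF n) (u v : V n → ℂ) (x : V n) : B s u v x = ∑ i, pd i u x * flx s v i x := by
  unfold B flx
  refine Finset.sum_congr rfl fun i _ => ?_
  rw [Finset.mul_sum]
  exact Finset.sum_congr rfl fun j _ => by ring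

theorem B_symm {s : MF n} (hs : ∀ x, (s x).IsSymm) (u v : V n → ℂ) (x : V n) :
    B s u v x = B s v u x := by
  unfold B
  rw [Finset.sum_comm]
  refine Finset.sum_congr rfl fun j _ => Finset.sum_congr rfl fun i _ => ?_
  rw [(hs x).apply j i]
  ring

theorem B_mul_right (s : MF n) {u a b : V n → ℂ} (ha : ContDiff ℝ ∞ a) (hb : ContDiff ℝ ∞ b)
    (x : V n) : B s u (fun y => a y * b y) x = a x * B s u b x + b x * B s u a x := by
  unfold B
  rw [Finset.mul_sum, Finset.mul_sum, ← Finset.sum_add_distrib]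
  refine Finset.sum_congr rfl fun i _ => ?_
  rw [Finset.mul_sum, Finset.mul_sum, ← Finset.sum_add_distrib]
  refine Finset.sum_congr rfl fun j _ => ?_
  rw [pd_mul ha hb]
  ring

theorem B_mul_left (s : MF n) {u a b : V n → ℂ} (ha : ContDiff ℝ ∞ a) (hb : ContDiff ℝ ∞ b)
    (x : V n) : B s (fun y => a y * b y) u x = a x * B s b u x + b x * B s a u x := by
  unfold B
  rw [Finset.mul_sum, Finset.mul_sum, ← Finset.sum_add_distrib]
  refine Finset.sum_congr rfl fun i _ => ?_
  rw [Finset.mul_sum, Finset.mul_sum, ← Finset.sum_add_distrib]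
  refine Finset.sum_congr rfl fun j _ => ?_
  rw [pd_mul ha hb]
  ring

theorem div_mul {s : MF n} (hs : SmM s) {g u : V n → ℂ} (hg : ContDiff ℝ ∞ g)
    (hu : ContDiff ℝ ∞ u) (x : V n) :
    ∑ i, pd i (fun y => g y * flx s u i y) x = B s g u x + g x * dv s u x := by
  have h1 : ∀ i, pd i (fun y => g y * flx s u i y) x =
      pd i g x * flx s u i x + g x * pd i (flx s u i) x := fun i =>
    pd_mul hg (contDiff_flx hs hu i) i x
  simp only [h1, Finset.sum_add_distrib]
  rw [B_flx, ← Finset.mul_sum]
  rfl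

theorem flx_mul (s : MF n) {a b : V n → ℂ} (ha : ContDiff ℝ ∞ a) (hb : ContDiff ℝ ∞ b)
    (i : Fin n) (x : V n) : flx s (fun y => a y * b y) i x = a x * flx s b i x + b x * flx s a i x := by
  unfold flx
  rw [Finset.mul_sum, Finset.mul_sum, ← Finset.sum_add_distrib]
  refine Finset.sum_congr rfl fun j _ => ?_
  rw [pd_mul ha hb]
  ring

theorem dv_mul {s : MF n} (hs : SmM s) (hsym : ∀ x, (s x).IsSymm) {a b : V n → ℂ}
    (ha : ContDiff ℝ ∞ a) (hb : ContDiff ℝ ∞ b) (x : V n) :
    dv s (fun y => a y * b y) x = a x * dv s b x + b x * dv s a x + 2 * B s a b x := by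
  have e : dv s (fun y => a y * b y) x =
      ∑ i, pd i (fun y => a y * flx s b i y + b y * flx s a i y) x := by
    unfold dv
    refine Finset.sum_congr rfl fun i _ => ?_
    have : (fun y => ∑ j, (s y i j : ℂ) * pd j (fun y => a y * b y) y) =
        fun y => a y * flx s b i y + b y * flx s a i y := by
      funext y
      exact flx_mul s ha hb i y
    rw [this]
  have h2 : ∀ i, pd i (fun y => a y * flx s b i y + b y * flx s a i y) x =
      pd i (fun y => a y * flx s b i y) x + pd i (fun y => b y * flx s a i y) x := by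
    intro i
    unfold pd
    rw [fderiv_fun_add ((ha.mul (contDiff_flx hs hb i)).differentiable (by simp) x)
      ((hb.mul (contDiff_flx hs ha i)).differentiable (by simp) x)]
    rfl
  rw [e]
  simp only [h2, Finset.sum_add_distrib]
  rw [div_mul hs ha hb, div_mul hs hb ha, B_symm hsym b a]
  ring

/-- multiplication of the tensor by a square -/
theorem dv_sq {s : MF n} (hs : SmM s) {v : V n → ℝ} (hv : ContDiff ℝ ∞ v) {W : V n → ℂ}
    (hW : ContDiff ℝ ∞ W) (x : V n) :
    dv (fun x => (v x) ^ 2 • s x) W x =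
      2 * cx v x * B s (cx v) W x + cx v x ^ 2 * dv s W x := by
  have hcv : ContDiff ℝ ∞ (cx v) := Complex.ofRealCLM.contDiff.comp hv
  have e : dv (fun x => (v x) ^ 2 • s x) W x =
      ∑ i, pd i (fun y => (cx v y * cx v y) * flx s W i y) x := by
    unfold dv
    refine Finset.sum_congr rfl fun i _ => ?_
    have : (fun y => ∑ j, ((((v y) ^ 2 • s y) i j : ℝ) : ℂ) * pd j W y) =
        fun y => (cx v y * cx v y) * flx s W i y := by
      funext y
      unfold flx cx
      rw [Finset.mul_sum]
      refine Finset.sum_congr rfl fun j _ => ?_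
      simp only [Matrix.smul_apply, smul_eq_mul, Complex.ofReal_mul, Complex.ofReal_pow]
      ring
    rw [this]
  rw [e, div_mul hs (hcv.mul hcv) hW, B_mul_left s hcv hcv]
  ring

theorem B_sq (s : MF n) (v : V n → ℝ) (a b : V n → ℂ) (x : V n) :
    B (fun x => (v x) ^ 2 • s x) a b x = cx v x ^ 2 * B s a b x := by
  unfold B cx
  rw [Finset.mul_sum]
  refine Finset.sum_congr rfl fun i _ => ?_
  rw [Finset.mul_sum]
  refine Finset.sum_congr rfl fun j _ => ?_
  simp only [Matrix.smul_apply, smul_eq_mul, Complex.ofReal_mul, Complex.ofReal_pow]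
  ring

theorem continuous_B {s : MF n} (hs : SmM s) {u v : V n → ℂ} (hu : ContDiff ℝ ∞ u)
    (hv : ContDiff ℝ ∞ v) : Continuous (B s u v) := by
  unfold B
  refine continuous_finsetSum _ fun i _ => continuous_finsetSum _ fun j _ => ?_
  exact ((Complex.continuous_ofReal.comp (hs i j).continuous).mul
    (contDiff_pd hu i).continuous).mul (contDiff_pd hv j).continuous

theorem int4 {Ω : Set (V n)} {f g h k : V n → ℂ} (hf : IntegrableOn f Ω) (hg : IntegrableOn g Ω)
    (hh : IntegrableOn h Ω) (hk : IntegrableOn k Ω) :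
    ∫ x in Ω, (f x + g x - h x - k x) =
      (∫ x in Ω, f x) + (∫ x in Ω, g x) - (∫ x in Ω, h x) - ∫ x in Ω, k x := by
  have i1 : IntegrableOn (fun x => f x + g x) Ω := hf.add hg
  have i2 : IntegrableOn (fun x => f x + g x - h x) Ω := i1.sub hh
  rw [integral_sub i2 hk, integral_sub i1 hh, integral_add hf hg]

/-- **Row SV** -/
theorem sv : RowSV := by
  intro n Ω hΩ hb hi s hs hsym hoff q hq hq0 hSQ v hv hv1 hveq U W hU hW hU0 hW0
  have hcv : ContDiff ℝ ∞ (cx v) := Complex.ofRealCLM.contDiff.comp hv.1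
  have hcq : ContDiff ℝ ∞ (cx q) := Complex.ofRealCLM.contDiff.comp hq
  have hv0 : ∀ x, cx v x ≠ 0 := fun x => by
    unfold cx
    exact_mod_cast (hv.2 x).ne'
  have hvW : ContDiff ℝ ∞ (fun y => cx v y * W y) := hcv.mul hW
  have hs2 : SmM (fun x => (v x) ^ 2 • s x) := fun i j => by
    simp only [Matrix.smul_apply, smul_eq_mul]
    exact (hv.1.pow 2).mul (hs i j)
  have hs2sym : ∀ x, ((v x) ^ 2 • s x).IsSymm := fun x => (hsym x).smul _
  have h1m : SmM (fun _ : V n => (1 : Matrix (Fin n) (Fin n) ℝ)) := fun i j => contDiff_const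
  have h1s : ∀ _ : V n, (1 : Matrix (Fin n) (Fin n) ℝ).IsSymm := fun _ => Matrix.isSymm_one
  have hfr : ∀ x ∈ frontier Ω, x ∉ Ω := fun x hx h => by
    rw [hΩ.frontier_eq] at hx
    exact hx.2 h
  have hio : ∀ f : V n → ℂ, Continuous f → IntegrableOn f Ω := fun f hf =>
    (hf.continuousOn.integrableOn_compact hb.isCompact_closure).mono_set subset_closure
  -- (1) the equation of `v W`
  have h1 : ∀ x ∈ Ω, dv s (fun y => cx v y * W y) x = (q x : ℂ) * (cx v x * W x) := by
    intro x hx
    have e1 := hW0 x hx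
    rw [dv_sq hs hv.1 hW] at e1
    have e2 : 2 * B s (cx v) W x + cx v x * dv s W x = 0 := by
      have : cx v x * (2 * B s (cx v) W x + cx v x * dv s W x) = 0 := by linear_combination e1
      exact (mul_eq_zero.1 this).resolve_left (hv0 x)
    rw [dv_mul hs hsym hcv hW]
    have e3 := hveq x
    have e4 : dv s (cx v) x = (q x : ℂ) * cx v x := e3
    rw [e4]
    linear_combination e2
  -- (2) the orthogonality
  have h2 := hSQ U _ hU hvW hU0 h1
  -- (3a)
  have h3 : bl Ω (fun _ => 1) U (fun y => (cx v y - 1) * W y) = 0 := by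
    refine weak Ω hΩ hb _ h1m h1s U _ hU ((hcv.sub contDiff_const).mul hW) hU0 ?_
    intro x hx
    have : cx v x = 1 := by
      unfold cx
      rw [hv1 x (hfr x hx), Complex.ofReal_one]
    rw [this, sub_self, zero_mul]
  -- (3b)
  have hinv : ContDiff ℝ ∞ (fun y => (cx v y)⁻¹) := hcv.inv hv0
  have h4 : bl Ω (fun x => (v x) ^ 2 • s x) W (fun y => U y * ((cx v y)⁻¹ - 1)) = 0 := by
    refine weak Ω hΩ hb _ hs2 hs2sym W _ hW (hU.mul (hinv.sub contDiff_const)) hW0 ?_
    intro x hx
    have : cx v x = 1 := by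
      unfold cx
      rw [hv1 x (hfr x hx), Complex.ofReal_one]
    rw [this, inv_one, sub_self, mul_zero]
  -- (4) the field `U W s ∇v`
  have hUW : ContDiff ℝ ∞ (fun y => U y * W y) := hU.mul hW
  have hpv : ∀ x ∉ Ω, ∀ j, pd j (cx v) x = 0 := by
    intro x hx j
    have h5 := H158.fderiv_zero_off (n := n) hi (G := fun y => cx v y - 1) (hcv.sub contDiff_const)
      (fun y hy => by
        show cx v y - 1 = 0
        unfold cx
        rw [hv1 y hy, Complex.ofReal_one, sub_self]) hx
    unfold pd
    have h6 : fderiv ℝ (fun y => cx v y - 1) x = fderiv ℝ (cx v) x := by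
      rw [fderiv_sub_const]
    rw [← h6, h5]
    rfl
  have hG : ∀ i, ContDiff ℝ ∞ (fun y => (U y * W y) * flx s (cx v) i y) := fun i =>
    hUW.mul (contDiff_flx hs hcv i)
  have hG0 : ∀ i, ∀ x ∉ Ω, (U x * W x) * flx s (cx v) i x = 0 := by
    intro i x hx
    unfold flx
    rw [Finset.sum_eq_zero fun j _ => by rw [hpv x hx j, mul_zero], mul_zero]
  have h5 : ∫ x in Ω, (U x * B s W (cx v) x + W x * B s U (cx v) x +
      (q x : ℂ) * (U x * W x * cx v x)) = 0 := by
    have h6 : ∫ x, ∑ i, pd i (fun y => (U y * W y) * flx s (cx v) i y) x = 0 := by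
      rw [integral_finsetSum _ fun i _ => (H158.integral_pd_zero hb (hG i) (hG0 i) i).1]
      exact Finset.sum_eq_zero fun i _ => (H158.integral_pd_zero hb (hG i) (hG0 i) i).2
    have h7 : ∫ x in Ω, ∑ i, pd i (fun y => (U y * W y) * flx s (cx v) i y) x =
        ∫ x, ∑ i, pd i (fun y => (U y * W y) * flx s (cx v) i y) x := by
      apply setIntegral_eq_integral_of_forall_compl_eq_zero
      intro x hx
      refine Finset.sum_eq_zero fun i _ => ?_
      unfold pd
      rw [H158.fderiv_zero_off hi (hG i) (hG0 i) hx]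
      rfl
    rw [h6] at h7
    rw [← h7]
    refine integral_congr_ae (Filter.Eventually.of_forall fun x => ?_)
    show U x * B s W (cx v) x + W x * B s U (cx v) x + (q x : ℂ) * (U x * W x * cx v x) =
      ∑ i, pd i (fun y => (U y * W y) * flx s (cx v) i y) x
    rw [div_mul hs hUW hcv, B_mul_left s hU hW]
    have e4 : dv s (cx v) x = (q x : ℂ) * cx v x := hveq x
    rw [e4]
    ring
  -- (5) everything as integrals of pointwise forms
  -- the sum of the four integrands vanishes
  have hsum : ∀ x, B (fun x => (v x) ^ 2 • s x - 1) U W x =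
      (B (fun x => s x - 1) U (fun y => cx v y * W y) x + (q x : ℂ) * U x * (cx v x * W x)) +
      B (fun _ => 1) U (fun y => (cx v y - 1) * W y) x -
      B (fun x => (v x) ^ 2 • s x) W (fun y => U y * ((cx v y)⁻¹ - 1)) x -
      (U x * B s W (cx v) x + W x * B s U (cx v) x + (q x : ℂ) * (U x * W x * cx v x)) := by
    intro x
    have a1 : B (fun x => (v x) ^ 2 • s x - 1) U W x =
        B (fun x => (v x) ^ 2 • s x) U W x - B (fun _ => 1) U W x := by
      unfold B
      simp only [Matrix.sub_apply, Complex.ofReal_sub, sub_mul, Finset.sum_sub_distrib]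
    have a2 : B (fun x => s x - 1) U (fun y => cx v y * W y) x =
        B s U (fun y => cx v y * W y) x - B (fun _ => 1) U (fun y => cx v y * W y) x := by
      unfold B
      simp only [Matrix.sub_apply, Complex.ofReal_sub, sub_mul, Finset.sum_sub_distrib]
    have a3 : (fun y => (cx v y - 1) * W y) = fun y => cx v y * W y - W y := by
      funext y
      ring
    have a4 : B (fun _ => (1 : Matrix (Fin n) (Fin n) ℝ)) U (fun y => cx v y * W y - W y) x =
        B (fun _ => 1) U (fun y => cx v y * W y) x - B (fun _ => 1) U W x := by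
      unfold B
      simp only [H884.pd_sub hvW hW, mul_sub, Finset.sum_sub_distrib]
    have a5 : (fun y => U y * ((cx v y)⁻¹ - 1)) = fun y => U y * (cx v y)⁻¹ - U y := by
      funext y
      ring
    have a6 : B s W (fun y => U y * (cx v y)⁻¹ - U y) x =
        B s W (fun y => U y * (cx v y)⁻¹) x - B s W U x := by
      unfold B
      simp only [H884.pd_sub (hU.mul hinv) hU, mul_sub, Finset.sum_sub_distrib]
    have a7 : ∀ i, pd i (fun y => (cx v y)⁻¹) x = -(pd i (cx v) x) / cx v x ^ 2 := by
      intro i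
      have b1 : pd i (fun y => cx v y * (cx v y)⁻¹) x = 0 := by
        have : (fun y => cx v y * (cx v y)⁻¹) = fun _ => 1 := by
          funext y
          exact mul_inv_cancel₀ (hv0 y)
        rw [this]
        unfold pd
        simp
      rw [pd_mul hcv hinv] at b1
      have b0 := hv0 x
      field_simp at b1 ⊢
      linear_combination b1
    have a8 : B s W (fun y => (cx v y)⁻¹) x = -(B s W (cx v) x) / cx v x ^ 2 := by
      unfold B
      simp only [a7]
      rw [neg_div, Finset.sum_div, ← Finset.sum_neg_distrib]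
      refine Finset.sum_congr rfl fun i _ => ?_
      rw [Finset.sum_div, ← Finset.sum_neg_distrib]
      exact Finset.sum_congr rfl fun j _ => by ring
    rw [a1, a2, a3, a4, a5, B_sq, B_sq, a6, B_mul_right s hcv hW, B_mul_right s hU hinv, a8,
      B_symm hsym U W, B_symm hsym U (cx v)]
    have b0 := hv0 x
    rw [B_symm hsym (cx v) U, B_symm hsym U (cx v)]
    field_simp
    ring
  have hsm1 : SmM (fun x => s x - 1) := fun i j => (hs i j).sub contDiff_const
  have k1 : IntegrableOn (B (fun x => s x - 1) U (fun y => cx v y * W y)) Ω :=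
    hio _ (continuous_B hsm1 hU hvW)
  have k2 : IntegrableOn (fun x => (q x : ℂ) * U x * (cx v x * W x)) Ω :=
    hio _ ((hcq.continuous.mul hU.continuous).mul hvW.continuous)
  have k3 : IntegrableOn (B (fun _ => 1) U (fun y => (cx v y - 1) * W y)) Ω :=
    hio _ (continuous_B h1m hU ((hcv.sub contDiff_const).mul hW))
  have k4 : IntegrableOn (B (fun x => (v x) ^ 2 • s x) W (fun y => U y * ((cx v y)⁻¹ - 1))) Ω :=
    hio _ (continuous_B hs2 hW (hU.mul (hinv.sub contDiff_const)))
  have k5 : IntegrableOn (fun x => U x * B s W (cx v) x + W x * B s U (cx v) x +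
      (q x : ℂ) * (U x * W x * cx v x)) Ω :=
    hio _ (((hU.continuous.mul (continuous_B hs hW hcv)).add
      (hW.continuous.mul (continuous_B hs hU hcv))).add
      (hcq.continuous.mul (hUW.continuous.mul hcv.continuous)))
  have k12 : IntegrableOn (fun x => B (fun x => s x - 1) U (fun y => cx v y * W y) x +
      (q x : ℂ) * U x * (cx v x * W x)) Ω := k1.add k2
  have h2' : ∫ x in Ω, (B (fun x => s x - 1) U (fun y => cx v y * W y) x +
      (q x : ℂ) * U x * (cx v x * W x)) = 0 := by
    rw [integral_add k1 k2]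
    exact h2
  rw [bl_eq] at h3 h4
  rw [bl_eq, integral_congr_ae (Filter.Eventually.of_forall hsum), int4 k12 k3 k4 k5, h5, h2',
    h3, h4]
  simp

end Vale.Agent.P088.LR.H705
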